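import Vale.Agent.P143.Main
import Vale.Agent.P143.Unimodular

open MeasureTheory SimpleGraph Vale.Agent.P143

theorem Vale.Agent.Results.P143.A_full.result :
    (∀ (Γ : Type*) [Group Γ] (S : Set Γ), S.Finite → Subgroup.closure S = ⊤ →
      ∃ Φ : (Γ → unitInterval) → ((mulCayley S).edgeSet → Bool), Measurable Φ ∧
        (∀ (γ : Γ) (U : Γ → unitInterval) (e e' : (mulCayley S).edgeSet),
          (e' : Sym2 Γ) = Sym2.map (fun x => γ * x) e → Φ (fun x => U (γ⁻¹ * x)) e' = Φ U e) ∧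
        IsFUSF (mulCayley S) ((iidLabels Γ).map Φ)) ∧
    ∃ Φ : SimpleGraph ℕ → (ℕ → unitInterval) → Sym2 ℕ → Bool,
      (∀ e : Sym2 ℕ, Measurable fun p : SimpleGraph ℕ × (ℕ → unitInterval) => Φ p.1 p.2 e) ∧
      (∀ (G G' : SimpleGraph ℕ) (σ : G ≃g G') (U : ℕ → unitInterval) (e : Sym2 ℕ),
        Φ G' (fun w => U (σ.symm w)) (Sym2.map σ e) = Φ G U e) ∧
      (∀ G : SimpleGraph ℕ, G.Connected → (∀ v, (G.neighborSet v).Finite) →
        IsFUSF G ((iidLabels ℕ).map fun U (e : G.edgeSet) => Φ G U e)) ∧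
      ∀ P : Measure (SimpleGraph ℕ × ℕ), IsUnimodular P →
        ∀ᵐ x ∂P, IsFUSF x.1 ((iidLabels ℕ).map fun U (e : x.1.edgeSet) => Φ x.1 U e) :=
  ⟨cayley_factor, factor, measurable_factor, fun _ _ σ U e => factor_map σ U e,
    fun _ hc hG => isFUSF_factor hG hc,
    fun _ hP => hP.2.1.mono fun _ hx => isFUSF_factor hx.2 hx.1⟩
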